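import Mathlib

open MeasureTheory ProbabilityTheory Set Metric
open scoped ENNReal Pointwise

namespace Vale.Agent.Lib.P309

/-- The ambient Euclidean space `ℝ^d`. -/
abbrev Vec (d : ℕ) := EuclideanSpace ℝ (Fin d)

/-- The Euclidean unit sphere `S^{d-1}` in `ℝ^d`. -/
abbrev Sph (d : ℕ) := Metric.sphere (0 : Vec d) 1

/-- The uniform (rotation invariant) probability measure on the unit sphere: the surface measure
induced by Lebesgue measure, normalised to total mass one. -/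
noncomputable def unifSphere (d : ℕ) : Measure (Sph d) :=
  ((volume : Measure (Vec d)).toSphere Set.univ)⁻¹ • (volume : Measure (Vec d)).toSphere

lemma cone_subset {d : ℕ} (u : Sph d) {ε : ℝ} (h0 : 0 < ε) (_h1 : ε ≤ 1)
    (A : Set (Sph d)) (hA : ∀ s ∈ A, ‖(s : Vec d) - u‖ ≤ ε) :
    (Ioo (0 : ℝ) 1 • ((↑) '' A : Set (Vec d))) ⊆
      ((1 - ε) • (Ioo (0 : ℝ) 1 • ((↑) '' A : Set (Vec d)))) ∪ closedBall (u : Vec d) (2 * ε) := by
  rintro v ⟨r, ⟨hr0, hr1⟩, w, ⟨s, hs, rfl⟩, rfl⟩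
  by_cases hr : r < 1 - ε
  · left
    have hl : 0 < 1 - ε := lt_trans hr0 hr
    refine ⟨(r / (1 - ε)) • (s : Vec d), ⟨r / (1 - ε), ⟨by positivity, by rw [div_lt_one hl]; exact hr⟩,
      (s : Vec d), ⟨s, hs, rfl⟩, rfl⟩, ?_⟩
    simp only [smul_smul]
    congr 1
    field_simp
  · right
    rw [mem_closedBall, dist_eq_norm]
    have hs1 : ‖(s : Vec d)‖ = 1 := by simp
    have e1 : r • (s : Vec d) - u = (r - 1) • (s : Vec d) + ((s : Vec d) - u) := by
      rw [sub_smul, one_smul]; abel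
    calc ‖(fun x1 x2 => x1 • x2) r (s : Vec d) - u‖ = ‖(r - 1) • (s : Vec d) + ((s : Vec d) - u)‖ := by
          rw [← e1]
      _ ≤ ‖(r - 1) • (s : Vec d)‖ + ‖(s : Vec d) - u‖ := norm_add_le _ _
      _ = |r - 1| + ‖(s : Vec d) - u‖ := by rw [norm_smul, hs1, mul_one, Real.norm_eq_abs]
      _ ≤ ε + ε := by
          have := hA s hs
          have h2 : |r - 1| ≤ ε := by
            rw [abs_le]; constructor <;> linarith
          linarith
      _ = 2 * ε := by ring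


lemma cone_vol_le {d : ℕ} (hd : 1 ≤ d) (u : Sph d) {ε : ℝ} (h0 : 0 < ε) (h1 : ε ≤ 1)
    (A : Set (Sph d)) (hA : ∀ s ∈ A, ‖(s : Vec d) - u‖ ≤ ε) :
    ENNReal.ofReal ε * volume (Ioo (0 : ℝ) 1 • ((↑) '' A : Set (Vec d))) ≤
      ENNReal.ofReal ((2 * ε) ^ d) * volume (ball (0 : Vec d) 1) := by
  set B : Set (Vec d) := Ioo (0 : ℝ) 1 • ((↑) '' A : Set (Vec d)) with hB
  have hBsub : B ⊆ ball (0 : Vec d) 1 := by
    rintro v ⟨r, ⟨hr0, hr1⟩, w, ⟨s, hs, rfl⟩, rfl⟩
    have hs1 : ‖(s : Vec d)‖ = 1 := by simp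
    simp only [mem_ball, dist_zero_right, norm_smul, hs1, mul_one, Real.norm_eq_abs]
    rw [abs_of_pos hr0]; exact hr1
  have hBfin : volume B ≠ ∞ := ne_top_of_le_ne_top (measure_ball_lt_top).ne (measure_mono hBsub)
  have key : volume B ≤ ENNReal.ofReal ((1 - ε) ^ d) * volume B +
      ENNReal.ofReal ((2 * ε) ^ d) * volume (ball (0 : Vec d) 1) := by
    calc volume B ≤ volume (((1 - ε) • B) ∪ closedBall (u : Vec d) (2 * ε)) :=
          measure_mono (cone_subset u h0 h1 A hA)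
      _ ≤ volume ((1 - ε) • B) + volume (closedBall (u : Vec d) (2 * ε)) := measure_union_le _ _
      _ = _ := by
          rw [Measure.addHaar_smul, Measure.addHaar_closedBall _ _ (by positivity)]
          simp only [finrank_euclideanSpace, Fintype.card_fin]
          rw [abs_of_nonneg (pow_nonneg (by linarith) _)]
  have hpow : (1 - ε) ^ d ≤ 1 - ε := pow_le_of_le_one (by linarith) (by linarith) (by omega)
  have hsplit : volume B = ENNReal.ofReal ε * volume B + ENNReal.ofReal (1 - ε) * volume B := by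
    rw [← add_mul, ← ENNReal.ofReal_add h0.le (by linarith)]
    simp
  have h2 : ENNReal.ofReal ε * volume B + ENNReal.ofReal (1 - ε) * volume B ≤
      ENNReal.ofReal ((2 * ε) ^ d) * volume (ball (0 : Vec d) 1) + ENNReal.ofReal (1 - ε) * volume B := by
    calc _ = volume B := hsplit.symm
      _ ≤ _ := key
      _ ≤ ENNReal.ofReal (1 - ε) * volume B +
          ENNReal.ofReal ((2 * ε) ^ d) * volume (ball (0 : Vec d) 1) := by
            gcongr
      _ = _ := add_comm _ _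
  exact (ENNReal.add_le_add_iff_right (ENNReal.mul_ne_top ENNReal.ofReal_ne_top hBfin)).1 h2

lemma unifSphere_apply {d : ℕ} {A : Set (Sph d)} (hA : MeasurableSet A) :
    unifSphere d A = (d * volume (ball (0 : Vec d) 1))⁻¹ *
      (d * volume (Ioo (0 : ℝ) 1 • ((↑) '' A : Set (Vec d)))) := by
  rw [unifSphere, Measure.smul_apply, Measure.toSphere_apply_univ, Measure.toSphere_apply' _ hA]
  simp

instance unifSphere_prob {d : ℕ} [NeZero d] : IsProbabilityMeasure (unifSphere d) := by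
  constructor
  rw [unifSphere, Measure.smul_apply, smul_eq_mul]
  apply ENNReal.inv_mul_cancel
  · rw [Measure.toSphere_apply_univ]
    simp only [finrank_euclideanSpace, Fintype.card_fin]
    apply mul_ne_zero
    · simpa using NeZero.ne d
    · exact (measure_ball_pos _ _ one_pos).ne'
  · exact measure_ne_top _ _

lemma unifSphere_cap_le {d : ℕ} (hd : 1 ≤ d) (u : Sph d) {ε : ℝ} (h0 : 0 < ε) (h1 : ε ≤ 1)
    (A : Set (Sph d)) (hAm : MeasurableSet A) (hA : ∀ s ∈ A, ‖(s : Vec d) - u‖ ≤ ε) :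
    unifSphere d A ≤ ENNReal.ofReal (2 ^ d * ε ^ (d - 1)) := by
  rw [unifSphere_apply hAm]
  set b := volume (Ioo (0 : ℝ) 1 • ((↑) '' A : Set (Vec d))) with hb
  set ω := volume (ball (0 : Vec d) 1) with hω
  have hω0 : ω ≠ 0 := (measure_ball_pos _ _ one_pos).ne'
  have hωt : ω ≠ ∞ := (measure_ball_lt_top).ne
  have hd0 : (d : ℝ≥0∞) ≠ 0 := by simpa using (by omega : d ≠ 0)
  have hdt : (d : ℝ≥0∞) ≠ ∞ := ENNReal.natCast_ne_top d
  have key := cone_vol_le hd u h0 h1 A hA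
  rw [← hb, ← hω] at key
  have hε0 : ENNReal.ofReal ε ≠ 0 := by simpa using h0
  have hεt : ENNReal.ofReal ε ≠ ∞ := ENNReal.ofReal_ne_top
  -- b ≤ (ofReal ε)⁻¹ * ofReal ((2ε)^d) * ω
  have hb2 : b ≤ (ENNReal.ofReal ε)⁻¹ * (ENNReal.ofReal ((2 * ε) ^ d) * ω) := by
    rw [← ENNReal.mul_le_iff_le_inv hε0 hεt]
    exact key
  have e1 : (ENNReal.ofReal ε)⁻¹ * ENNReal.ofReal ((2 * ε) ^ d) = ENNReal.ofReal (2 ^ d * ε ^ (d - 1)) := by
    rw [← ENNReal.ofReal_inv_of_pos h0, ← ENNReal.ofReal_mul (by positivity)]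
    congr 1
    obtain ⟨k, rfl⟩ : ∃ k, d = k + 1 := ⟨d - 1, by omega⟩
    simp only [Nat.add_sub_cancel]
    field_simp
    ring
  calc ((d : ℝ≥0∞) * ω)⁻¹ * (d * b) ≤ ((d : ℝ≥0∞) * ω)⁻¹ * (d * ((ENNReal.ofReal ε)⁻¹ * (ENNReal.ofReal ((2 * ε) ^ d) * ω))) := by
        gcongr
    _ = (((d : ℝ≥0∞) * ω)⁻¹ * (d * ω)) * ((ENNReal.ofReal ε)⁻¹ * ENNReal.ofReal ((2 * ε) ^ d)) := by ring
    _ = ENNReal.ofReal (2 ^ d * ε ^ (d - 1)) := by
        rw [ENNReal.inv_mul_cancel (mul_ne_zero hd0 hω0) (ENNReal.mul_ne_top hdt hωt), one_mul, e1]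


end Vale.Agent.Lib.P309
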