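import Vale.Agent.Lib.P309.Model
open MeasureTheory ProbabilityTheory Set Metric
open scoped ENNReal Pointwise
namespace Vale.Agent.Lib.P309
variable {d M : ℕ}

lemma chord_le_of_arccos_le (u s : Sph d) {ε : ℝ}
    (h : Real.arccos (inner ℝ (u : Vec d) (s : Vec d)) ≤ ε) : ‖(s : Vec d) - u‖ ≤ ε := by
  have hu : ‖(u : Vec d)‖ = 1 := by simp
  have hs : ‖(s : Vec d)‖ = 1 := by simp
  set c := inner ℝ (u : Vec d) (s : Vec d) with hc
  have hc1 : |c| ≤ 1 := by
    have := abs_real_inner_le_norm (u : Vec d) (s : Vec d)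
    rwa [hu, hs, one_mul] at this
  obtain ⟨hcl, hcu⟩ := abs_le.1 hc1
  set θ := Real.arccos c with hθ
  have hθ0 : 0 ≤ θ := Real.arccos_nonneg c
  have hcos : Real.cos θ = c := Real.cos_arccos hcl hcu
  have h1 : 1 - θ ^ 2 / 2 ≤ c := hcos ▸ Real.one_sub_sq_div_two_le_cos
  have h2 : ‖(s : Vec d) - u‖ ^ 2 = 2 - 2 * c := by
    rw [@norm_sub_sq_real, hu, hs, real_inner_comm]
    ring
  have h3 : ‖(s : Vec d) - u‖ ^ 2 ≤ θ ^ 2 := by rw [h2]; linarith
  have h4 : ‖(s : Vec d) - u‖ ≤ θ := by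
    exact (pow_le_pow_iff_left₀ (norm_nonneg _) hθ0 (by norm_num)).1 h3
  linarith

/-- the set of pairs (signal, output) at angle at most `ε` -/
def closePairs (d : ℕ) (ε : ℝ) : Set (Sph d × Sph d) :=
  {p | Real.arccos (inner ℝ (p.2 : Vec d) (p.1 : Vec d)) ≤ ε}

lemma measurableSet_closePairs (ε : ℝ) : MeasurableSet (closePairs d ε) := by
  apply IsClosed.measurableSet
  apply isClosed_le _ continuous_const
  apply Real.continuous_arccos.comp
  fun_prop

theorem Learner.successProb_le (hd : 1 ≤ d) (L : Learner d M) (T : ℕ) {ε : ℝ} (h0 : 0 < ε) (h1 : ε ≤ 1) :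
    L.successProb T ε ≤ (2 : ℝ≥0∞) ^ M * ENNReal.ofReal (2 ^ d * ε ^ (d - 1)) := by
  have : NeZero d := ⟨by omega⟩
  have := L.out_markov
  set c : ℝ≥0∞ := ENNReal.ofReal (2 ^ d * ε ^ (d - 1)) with hc
  -- bound for a fixed state
  have hz : ∀ z : Fin L.K, ∫⁻ s, L.out z (Prod.mk s ⁻¹' closePairs d ε) ∂(unifSphere d) ≤ c := by
    intro z
    rw [← Measure.prod_apply (measurableSet_closePairs ε),
      Measure.prod_apply_symm (measurableSet_closePairs ε)]
    calc ∫⁻ u, unifSphere d ((fun s => (s, u)) ⁻¹' closePairs d ε) ∂(L.out z)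
        ≤ ∫⁻ _u, c ∂(L.out z) := by
          apply lintegral_mono
          intro u
          apply unifSphere_cap_le hd u h0 h1
          · exact measurable_prodMk_right (measurableSet_closePairs ε)
          · intro s hs
            exact chord_le_of_arccos_le u s hs
      _ = c := by simp
  have hinner : ∀ x : ℕ → Vec d, ∫⁻ s, ∫⁻ zb, L.out zb.1 {u : Sph d | Real.arccos (inner ℝ (u : Vec d) (s : Vec d)) ≤ ε}
      ∂(L.stateLaw x s T) ∂(unifSphere d) ≤ (2 : ℝ≥0∞) ^ M * c := by
    intro x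
    calc ∫⁻ s, ∫⁻ zb, L.out zb.1 {u : Sph d | Real.arccos (inner ℝ (u : Vec d) (s : Vec d)) ≤ ε}
          ∂(L.stateLaw x s T) ∂(unifSphere d)
        ≤ ∫⁻ s, ∑ z : Fin L.K, L.out z (Prod.mk s ⁻¹' closePairs d ε) ∂(unifSphere d) := by
          apply lintegral_mono
          intro s
          have := L.stateLaw_prob x s T
          calc ∫⁻ zb, L.out zb.1 {u : Sph d | Real.arccos (inner ℝ (u : Vec d) (s : Vec d)) ≤ ε} ∂(L.stateLaw x s T)
              ≤ ∫⁻ _zb, ∑ z : Fin L.K, L.out z (Prod.mk s ⁻¹' closePairs d ε) ∂(L.stateLaw x s T) := by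
                apply lintegral_mono
                intro zb
                exact Finset.single_le_sum (f := fun z => L.out z (Prod.mk s ⁻¹' closePairs d ε))
                  (fun _ _ => zero_le) (Finset.mem_univ zb.1)
            _ = _ := by simp
      _ = ∑ z : Fin L.K, ∫⁻ s, L.out z (Prod.mk s ⁻¹' closePairs d ε) ∂(unifSphere d) := by
          rw [lintegral_finsetSum]
          intro z _
          exact measurable_measure_prodMk_left (measurableSet_closePairs ε)
      _ ≤ ∑ _z : Fin L.K, c := Finset.sum_le_sum (fun z _ => hz z)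
      _ = (L.K : ℝ≥0∞) * c := by simp
      _ ≤ (2 : ℝ≥0∞) ^ M * c := by
          gcongr
          exact_mod_cast L.K_le
  unfold Learner.successProb
  calc _ ≤ ∫⁻ _x, (2 : ℝ≥0∞) ^ M * c ∂(Measure.infinitePi (fun _ : ℕ => stdGaussian (Vec d))) :=
        lintegral_mono hinner
    _ = _ := by simp

end Vale.Agent.Lib.P309
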