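import Vale.Agent.Lib.P309.Cap

open MeasureTheory ProbabilityTheory Set Metric
open scoped ENNReal Pointwise

namespace Vale.Agent.Lib.P309

/-- A learner with `M` bits of persistent memory for signals in `ℝ^d`: a set of `K ≤ 2^M`
persistent states, a random initial state, for every index `t` a measurable randomized rule
(a Markov kernel) sending the current state and the current pair `(x_t, y_t)` to the new state
together with the decision to stop, and a randomized output rule reading only the final state. -/
structure Learner (d M : ℕ) where
  /-- the number of persistent states -/
  K : ℕ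
  K_le : K ≤ 2 ^ M
  /-- the law of the initial state -/
  init : Measure (Fin K)
  init_prob : IsProbabilityMeasure init
  /-- the randomized transition and stopping rule used at index `t` -/
  step : ℕ → Kernel (Fin K × (Vec d × ℝ)) (Fin K × Bool)
  step_markov : ∀ t, IsMarkovKernel (step t)
  /-- the randomized output rule -/
  out : Kernel (Fin K) (Sph d)
  out_markov : IsMarkovKernel out

variable {d M : ℕ}

/-- One step of the learner on the pair `(x, y)` at index `t`: a learner that has stopped keeps its
state, otherwise the transition and stopping rule is applied. -/
noncomputable def Learner.advance (L : Learner d M) (t : ℕ) (x : Vec d) (y : ℝ)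
    (zb : Fin L.K × Bool) : Measure (Fin L.K × Bool) :=
  if zb.2 then Measure.dirac zb else L.step t (zb.1, (x, y))

/-- The law of (state, has stopped) after `t` samples, for given rows `x 0, x 1, ...` and signal `s`;
the label of row `x t` is the exact inner product of `x t` and `s`. -/
noncomputable def Learner.stateLaw (L : Learner d M) (x : ℕ → Vec d) (s : Sph d) :
    ℕ → Measure (Fin L.K × Bool)
  | 0 => L.init.map (fun z => (z, false))
  | t + 1 => (L.stateLaw x s t).bind (L.advance t (x t) (inner ℝ (x t) (s : Vec d)))

/-- The probability that the output of the learner run with horizon `T` is within angle `ε` of the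
signal, for i.i.d. standard Gaussian rows and an independent uniformly random signal. -/
noncomputable def Learner.successProb (L : Learner d M) (T : ℕ) (ε : ℝ) : ℝ≥0∞ :=
  ∫⁻ x, ∫⁻ s, ∫⁻ zb, L.out zb.1 {u : Sph d | Real.arccos (inner ℝ (u : Vec d) (s : Vec d)) ≤ ε}
    ∂(L.stateLaw x s T) ∂(unifSphere d) ∂(Measure.infinitePi (fun _ : ℕ => stdGaussian (Vec d)))

lemma Learner.advance_prob (L : Learner d M) (t : ℕ) (x : Vec d) (y : ℝ) (zb : Fin L.K × Bool) :
    IsProbabilityMeasure (L.advance t x y zb) := by
  unfold Learner.advance
  split_ifs
  · infer_instance
  · have := L.step_markov t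
    infer_instance

lemma Learner.stateLaw_prob (L : Learner d M) (x : ℕ → Vec d) (s : Sph d) (t : ℕ) :
    IsProbabilityMeasure (L.stateLaw x s t) := by
  induction t with
  | zero =>
    have := L.init_prob
    exact Measure.isProbabilityMeasure_map (Measurable.of_discrete).aemeasurable
  | succ t ih =>
    have := ih
    exact isProbabilityMeasure_bind (Measurable.of_discrete).aemeasurable
      (Filter.Eventually.of_forall (fun zb => L.advance_prob t _ _ zb))

end Vale.Agent.Lib.P309
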